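import Crest.Agent.R84.Calc

set_option autoImplicit false

namespace Crest.Agent.R84

open Crest.OpAlg MeasureTheory Filter Topology BoundedContinuousFunction
open scoped FourierTransform

local notation "χ" => LineCalculus.character

lemma exists_bump0 : ∃ (g : ℝ → ℂ) (b : ℝ → ℂ), Integrable g ∧ Continuous b ∧
    (∀ w, b w = ∫ v, Complex.exp (((2 * Real.pi * (v * w) : ℝ) : ℂ) * Complex.I) * g v) ∧
    (∀ w, ‖b w‖ ≤ 1) ∧ (∀ w, |w| ≤ 1 → b w = 1) ∧ (∀ w, 2 ≤ |w| → b w = 0) := by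
  let b : ContDiffBump (0 : ℝ) := ⟨1, 2, one_pos, one_lt_two⟩
  have h1 : HasCompactSupport fun x : ℝ => ((b x : ℝ) : ℂ) :=
    b.hasCompactSupport.comp_left (g := fun r : ℝ => (r : ℂ)) (by simp)
  have h2 : ContDiff ℝ (⊤ : ℕ∞) fun x : ℝ => ((b x : ℝ) : ℂ) :=
    Complex.ofRealCLM.contDiff.comp b.contDiff
  let φ : SchwartzMap ℝ ℂ := h1.toSchwartzMap h2
  refine ⟨(𝓕 φ : SchwartzMap ℝ ℂ), fun x => ((b x : ℝ) : ℂ), (𝓕 φ : SchwartzMap ℝ ℂ).integrable,
    h2.continuous, fun w => ?_, fun w => ?_, fun w hw => ?_, fun w hw => ?_⟩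
  · have h3 : (𝓕⁻ (𝓕 φ : SchwartzMap ℝ ℂ) : SchwartzMap ℝ ℂ) = φ :=
      FourierTransform.fourierInv_fourier_eq φ
    have h4 : φ w = ((b w : ℝ) : ℂ) := rfl
    have h5 : (𝓕⁻ (𝓕 φ : SchwartzMap ℝ ℂ) : SchwartzMap ℝ ℂ) w = ((b w : ℝ) : ℂ) := by
      rw [h3, h4]
    rw [SchwartzMap.fourierInv_coe, Real.fourierInv_eq'] at h5
    refine h5.symm.trans ?_
    congr 1; ext v
    simp [mul_comm v w]
  · simp only [Complex.norm_real, Real.norm_eq_abs]
    rw [abs_of_nonneg b.nonneg]; exact b.le_one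
  · have : b w = 1 := b.one_of_mem_closedBall (by simpa [b] using hw)
    simp [this]
  · have : b w = 0 := b.zero_of_le_dist (by simpa [b] using hw)
    simp [this]

lemma exists_bump : ∃ G : ℝ, 0 ≤ G ∧ ∀ s δ : ℝ, 0 < δ → ∃ (g : ℝ → ℂ) (ψ : ℝ →ᵇ ℂ),
    Integrable g ∧ ∫ t, ‖g t‖ ≤ G ∧ (∀ u, ψ u = ∫ t, g t * (χ t) u) ∧ ‖ψ‖ ≤ 1 ∧
    (∀ u ∈ Set.Icc (s - δ) (s + δ), ψ u = 1) ∧
    (∀ u, u ∉ Set.Icc (s - 2 * δ) (s + 2 * δ) → ψ u = 0) := by
  obtain ⟨g, b, hg, hb, hgb, hb1, hb2, hb3⟩ := exists_bump0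
  refine ⟨∫ t, ‖g t‖, integral_nonneg fun _ => norm_nonneg _, fun s δ hδ => ?_⟩
  set κ : ℝ := δ / (2 * Real.pi) with hκ
  have hκ0 : 0 < κ := by positivity
  have hgκ : Integrable fun t => g (κ * t) := hg.comp_mul_left' hκ0.ne'
  refine ⟨fun t => (κ : ℂ) * g (κ * t) * (χ (-t)) s,
    BoundedContinuousFunction.ofNormedAddCommGroup (fun u => b ((u - s) / δ)) (by fun_prop) 1
      (fun u => hb1 _), ?_, ?_, ?_, ?_, ?_, ?_⟩
  · refine Integrable.mul_bdd (c := 1) (hgκ.const_mul _) ?_ (ae_of_all _ fun t => ?_)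
    · refine Continuous.aestronglyMeasurable ?_
      simp only [character_apply]; fun_prop
    · rw [norm_character_apply]
  · simp only [norm_mul, norm_character_apply, mul_one, Complex.norm_real, Real.norm_eq_abs]
    rw [integral_const_mul, Measure.integral_comp_mul_left (fun t => ‖g t‖) κ, smul_eq_mul,
      ← mul_assoc, abs_inv, mul_inv_cancel₀ (abs_pos.2 hκ0.ne').ne', one_mul]
  · intro u
    simp only [coe_ofNormedAddCommGroup]
    rw [hgb]
    have := Measure.integral_comp_mul_left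
      (fun v => Complex.exp (((2 * Real.pi * (v * ((u - s) / δ)) : ℝ) : ℂ) * Complex.I) * g v) κ
    rw [abs_inv, abs_of_pos hκ0] at this
    have h2 : (∫ v, Complex.exp (((2 * Real.pi * (v * ((u - s) / δ)) : ℝ) : ℂ) * Complex.I) * g v)
        = κ • ∫ x, Complex.exp (((2 * Real.pi * ((κ * x) * ((u - s) / δ)) : ℝ) : ℂ) * Complex.I)
          * g (κ * x) := by
      rw [this, smul_smul, mul_inv_cancel₀ hκ0.ne', one_smul]
    rw [h2, ← integral_smul]
    congr 1; ext t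
    have h3 : 2 * Real.pi * ((κ * t) * ((u - s) / δ)) = -t * s + t * u := by
      rw [hκ]; field_simp; ring
    rw [h3, character_apply, character_apply, mul_assoc _ (Complex.exp _), ← Complex.exp_add]
    simp only [Complex.real_smul]
    push_cast
    ring_nf
  · exact norm_ofNormedAddCommGroup_le _ zero_le_one _
  · intro u hu
    simp only [coe_ofNormedAddCommGroup]
    apply hb2
    rw [abs_div, abs_of_pos hδ, div_le_one hδ, abs_le]
    constructor <;> linarith [hu.1, hu.2]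
  · intro u hu
    simp only [coe_ofNormedAddCommGroup]
    apply hb3
    rw [abs_div, abs_of_pos hδ, le_div_iff₀ hδ, le_abs]
    simp only [Set.mem_Icc, not_and_or, not_le] at hu
    rcases hu with hu | hu
    · right; linarith
    · left; linarith

end Crest.Agent.R84
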