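import Mathlib
import Crest.Prelude.Def_ModularData

set_option autoImplicit false

namespace Crest.Agent.R84

open Crest.OpAlg MeasureTheory Filter Topology BoundedContinuousFunction

variable {H : Type*} [NormedAddCommGroup H] [InnerProductSpace ℂ H] [CompleteSpace H]

local notation "χ" => LineCalculus.character

lemma character_apply (t u : ℝ) :
    (χ t) u = Complex.exp (Complex.I * ((t * u : ℝ) : ℂ)) := rfl

lemma norm_character_apply (t u : ℝ) : ‖(χ t) u‖ = 1 := by
  rw [character_apply, Complex.norm_exp]; simp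

lemma character_add (s t : ℝ) : χ (s + t) = χ s * χ t := by
  ext u
  simp only [character_apply, coe_mul, Pi.mul_apply, ← Complex.exp_add]
  congr 1; push_cast; ring

lemma character_zero : χ 0 = 1 := by
  ext u; simp [character_apply]

lemma star_character (t : ℝ) : star (χ t) = χ (-t) := by
  ext u
  simp only [character_apply, coe_star, Pi.star_apply, RCLike.star_def, ← Complex.exp_conj]
  congr 1; simp

lemma norm_character_sub (s t u : ℝ) : ‖(χ s) u - (χ t) u‖ ≤ |s - t| * |u| := by
  have h1 : (χ s) u - (χ t) u = (χ t) u * (Complex.exp (Complex.I * (((s - t) * u : ℝ) : ℂ)) - 1) := by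
    simp only [character_apply, mul_sub, mul_one, ← Complex.exp_add]
    congr 2; push_cast; ring
  rw [h1, norm_mul, norm_character_apply, one_mul]
  have := Real.norm_exp_I_mul_ofReal_sub_one_le (x := (s - t) * u)
  simpa [abs_mul] using this

lemma norm_apply_le (D : LineCalculus H) (f : ℝ →ᵇ ℂ) : ‖D.apply f‖ ≤ ‖f‖ :=
  NonUnitalStarAlgHom.norm_apply_le D.apply f

lemma norm_apply_apply_le (D : LineCalculus H) (f : ℝ →ᵇ ℂ) (x : H) :
    ‖D.apply f x‖ ≤ ‖f‖ * ‖x‖ :=
  ((D.apply f).le_opNorm x).trans (by gcongr; exact norm_apply_le D f)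

lemma apply_mul_apply (D : LineCalculus H) (f g : ℝ →ᵇ ℂ) (x : H) :
    D.apply (f * g) x = D.apply f (D.apply g x) := by
  rw [map_mul]; rfl

lemma apply_comm (D : LineCalculus H) (f g : ℝ →ᵇ ℂ) (x : H) :
    D.apply f (D.apply g x) = D.apply g (D.apply f x) := by
  rw [← apply_mul_apply, ← apply_mul_apply, mul_comm]

lemma wave_add (D : LineCalculus H) (s t : ℝ) : D.wave (s + t) = D.wave s * D.wave t := by
  simp only [LineCalculus.wave, character_add, map_mul]

lemma wave_zero (D : LineCalculus H) : D.wave 0 = 1 := by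
  simp only [LineCalculus.wave, character_zero, map_one]

lemma star_wave (D : LineCalculus H) (t : ℝ) : star (D.wave t) = D.wave (-t) := by
  simp only [LineCalculus.wave, ← map_star, star_character]

lemma wave_wave (D : LineCalculus H) (s t : ℝ) (x : H) :
    D.wave s (D.wave t x) = D.wave (s + t) x := by
  rw [wave_add]; rfl

lemma wave_neg_wave (D : LineCalculus H) (t : ℝ) (x : H) : D.wave (-t) (D.wave t x) = x := by
  rw [wave_wave, neg_add_cancel, wave_zero]; rfl

lemma wave_wave_neg (D : LineCalculus H) (t : ℝ) (x : H) : D.wave t (D.wave (-t) x) = x := by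
  rw [wave_wave, add_neg_cancel, wave_zero]; rfl

lemma inner_wave_left (D : LineCalculus H) (t : ℝ) (x y : H) :
    inner ℂ (D.wave t x) y = inner ℂ x (D.wave (-t) y) := by
  rw [← star_wave, ContinuousLinearMap.star_eq_adjoint, ContinuousLinearMap.adjoint_inner_right]

lemma inner_wave_right (D : LineCalculus H) (t : ℝ) (x y : H) :
    inner ℂ x (D.wave t y) = inner ℂ (D.wave (-t) x) y := by
  rw [inner_wave_left, neg_neg]

lemma norm_wave (D : LineCalculus H) (t : ℝ) (x : H) : ‖D.wave t x‖ = ‖x‖ := by
  have h : inner ℂ (D.wave t x) (D.wave t x) = inner ℂ x x := by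
    rw [inner_wave_left, wave_neg_wave]
  rw [inner_self_eq_norm_sq_to_K, inner_self_eq_norm_sq_to_K] at h
  have h2 : ‖D.wave t x‖ ^ 2 = ‖x‖ ^ 2 := by exact_mod_cast h
  exact (pow_left_inj₀ (norm_nonneg _) (norm_nonneg _) two_ne_zero).1 h2

/-- A vector killed by all compactly supported functions is zero. -/
lemma eq_zero_of_compact (D : LineCalculus H) (x : H)
    (h : ∀ f : ℝ →ᵇ ℂ, HasCompactSupport (f : ℝ → ℂ) → D.apply f x = 0) : x = 0 := by
  by_contra hx
  obtain ⟨f, hf, hfx⟩ := D.window x ‖x‖ (norm_pos_iff.2 hx)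
  rw [h f hf] at hfx
  simp at hfx

lemma exists_radius {f : ℝ → ℂ} (hf : HasCompactSupport f) :
    ∃ R : ℝ, 0 ≤ R ∧ ∀ u, R < |u| → f u = 0 := by
  obtain ⟨R, hR⟩ := hf.isCompact.isBounded.subset_closedBall 0
  refine ⟨|R|, abs_nonneg _, fun u hu => ?_⟩
  by_contra h
  have : u ∈ tsupport f := subset_tsupport f h
  have := hR this
  simp at this
  linarith [le_abs_self R]

lemma continuous_character_mul (f : ℝ →ᵇ ℂ) (hf : HasCompactSupport (f : ℝ → ℂ)) :
    Continuous fun t : ℝ => χ t * f := by
  obtain ⟨R, hR0, hR⟩ := exists_radius hf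
  have : LipschitzWith (Real.toNNReal (R * ‖f‖)) fun t : ℝ => χ t * f := by
    refine LipschitzWith.of_dist_le_mul fun s t => ?_
    rw [Real.coe_toNNReal _ (by positivity), dist_eq_norm]
    refine (norm_le (by positivity)).2 fun u => ?_
    simp only [coe_sub, coe_mul, Pi.sub_apply, Pi.mul_apply, ← sub_mul, norm_mul]
    by_cases hu : R < |u|
    · rw [hR u hu]; simp; positivity
    · push Not at hu
      calc ‖(χ s) u - (χ t) u‖ * ‖f u‖ ≤ (|s - t| * |u|) * ‖f‖ := by
            gcongr
            · exact norm_character_sub s t u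
            · exact f.norm_coe_le_norm u
        _ ≤ (|s - t| * R) * ‖f‖ := by gcongr
        _ = R * ‖f‖ * dist s t := by rw [Real.dist_eq]; ring
  exact this.continuous

/-- `f ↦ f(D) x` as a continuous linear map. -/
noncomputable def applyAt (D : LineCalculus H) (x : H) : (ℝ →ᵇ ℂ) →L[ℂ] H :=
  LinearMap.mkContinuous
    { toFun := fun f => D.apply f x
      map_add' := fun f g => by simp
      map_smul' := fun c f => by simp } ‖x‖
    (fun f => by rw [mul_comm]; exact norm_apply_apply_le D f x)

@[simp] lemma applyAt_apply (D : LineCalculus H) (x : H) (f : ℝ →ᵇ ℂ) :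
    applyAt D x f = D.apply f x := rfl

lemma continuous_wave (D : LineCalculus H) (x : H) : Continuous fun t : ℝ => D.wave t x := by
  refine continuous_of_uniform_approx_of_continuous fun u hu => ?_
  obtain ⟨ε, hε, hεu⟩ := Metric.mem_uniformity_dist.1 hu
  obtain ⟨f, hf, hfx⟩ := D.window x ε hε
  refine ⟨fun t => applyAt D x (χ t * f), (applyAt D x).continuous.comp
    (continuous_character_mul f hf), fun t => hεu ?_⟩
  simp only [applyAt_apply, apply_mul_apply, dist_eq_norm]
  change ‖D.wave t x - D.wave t (D.apply f x)‖ < ε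
  rw [← map_sub, norm_wave, norm_sub_rev]
  exact hfx

lemma continuous_wave₂ (D : LineCalculus H) {X : Type*} [TopologicalSpace X] {τ : X → ℝ}
    {y : X → H} (hτ : Continuous τ) (hy : Continuous y) :
    Continuous fun p => D.wave (τ p) (y p) := by
  rw [continuous_iff_continuousAt]
  intro p
  have h1 : Tendsto (fun q => D.wave (τ q) (y p)) (𝓝 p) (𝓝 (D.wave (τ p) (y p))) :=
    ((continuous_wave D (y p)).comp hτ).continuousAt
  have h2 : Tendsto (fun q => D.wave (τ q) (y q - y p)) (𝓝 p) (𝓝 0) := by
    rw [tendsto_zero_iff_norm_tendsto_zero]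
    simp_rw [norm_wave]
    exact tendsto_iff_norm_sub_tendsto_zero.1 hy.continuousAt
  have := h1.add h2
  simp only [add_zero, map_sub, add_sub_cancel] at this
  exact this

lemma integrable_smul_wave (D : LineCalculus H) {g : ℝ → ℂ} (hg : Integrable g) (x : H) :
    Integrable fun t => g t • D.wave t x := by
  refine Integrable.mono' (hg.norm.mul_const ‖x‖)
    (hg.1.smul (continuous_wave D x).aestronglyMeasurable) (ae_of_all _ fun t => ?_)
  rw [norm_smul, norm_wave]

/-- Fourier representation of the calculus. -/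
lemma integral_smul_wave (D : LineCalculus H) {g : ℝ → ℂ} (hg : Integrable g) (ψ : ℝ →ᵇ ℂ)
    (hψ : ∀ u, ψ u = ∫ t, g t * (χ t) u) (x : H) :
    ∫ t, g t • D.wave t x = D.apply ψ x := by
  have key : ∀ f : ℝ →ᵇ ℂ, HasCompactSupport (f : ℝ → ℂ) →
      ∫ t, g t • D.wave t (D.apply f x) = D.apply ψ (D.apply f x) := by
    intro f hf
    have hi : Integrable fun t => g t • (χ t * f) := by
      refine Integrable.mono' (hg.norm.mul_const ‖f‖)
        (hg.1.smul (continuous_character_mul f hf).aestronglyMeasurable) (ae_of_all _ fun t => ?_)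
      rw [norm_smul]
      gcongr
      refine (norm_le (by positivity)).2 fun u => ?_
      simp only [coe_mul, Pi.mul_apply, norm_mul, norm_character_apply, one_mul]
      exact f.norm_coe_le_norm u
    have h1 : ∫ t, g t • (χ t * f) = ψ * f := by
      ext u
      have := (evalCLM ℂ u : (ℝ →ᵇ ℂ) →L[ℂ] ℂ).integral_comp_comm hi
      simp only [evalCLM_apply] at this
      rw [← this, coe_mul, Pi.mul_apply, hψ, ← integral_mul_const]
      congr 1; ext t; simp [mul_assoc]
    have h2 := (applyAt D x).integral_comp_comm hi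
    rw [h1] at h2
    simp only [map_smul, applyAt_apply, apply_mul_apply] at h2
    exact h2
  apply eq_of_sub_eq_zero
  apply eq_zero_of_compact D
  intro f hf
  rw [map_sub, apply_comm, ← key f hf, ← (D.apply f).integral_comp_comm (integrable_smul_wave D hg x)]
  simp only [map_smul, LineCalculus.wave, apply_comm D f]
  simp

/-- the smoothed operator `∫ g(t) U_t a U_{-t} dt` (strong integral). -/
noncomputable def smooth (D : LineCalculus H) (g : ℝ → ℂ) (hg : Integrable g) (a : H →L[ℂ] H) :
    H →L[ℂ] H :=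
  have hi : ∀ x : H, Integrable fun t => g t • D.wave t (a (D.wave (-t) x)) := fun x => by
    refine Integrable.mono' (hg.norm.mul_const (‖a‖ * ‖x‖))
      (hg.1.smul (continuous_wave₂ D continuous_id
        (a.continuous.comp ((continuous_wave D x).comp continuous_neg))).aestronglyMeasurable)
      (ae_of_all _ fun t => ?_)
    rw [norm_smul, norm_wave]
    gcongr
    exact (a.le_opNorm _).trans (by rw [norm_wave])
  LinearMap.mkContinuous
    { toFun := fun x => ∫ t, g t • D.wave t (a (D.wave (-t) x))
      map_add' := fun x y => by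
        rw [← integral_add (hi x) (hi y)]; simp
      map_smul' := fun c x => by
        rw [RingHom.id_apply, ← integral_smul]; simp [smul_comm c] } ((∫ t, ‖g t‖) * ‖a‖)
    (fun x => by
      refine (norm_integral_le_of_norm_le (hg.norm.mul_const (‖a‖ * ‖x‖))
        (ae_of_all _ fun t => ?_)).trans (le_of_eq ?_)
      · rw [norm_smul, norm_wave]
        gcongr
        exact (a.le_opNorm _).trans (by rw [norm_wave])
      · rw [integral_mul_const, mul_assoc])

lemma integrable_smooth (D : LineCalculus H) {g : ℝ → ℂ} (hg : Integrable g) (a : H →L[ℂ] H)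
    (x : H) : Integrable fun t => g t • D.wave t (a (D.wave (-t) x)) := by
  refine Integrable.mono' (hg.norm.mul_const (‖a‖ * ‖x‖))
    (hg.1.smul (continuous_wave₂ D continuous_id
      (a.continuous.comp ((continuous_wave D x).comp continuous_neg))).aestronglyMeasurable)
    (ae_of_all _ fun t => ?_)
  rw [norm_smul, norm_wave]
  gcongr
  exact (a.le_opNorm _).trans (by rw [norm_wave])

lemma smooth_apply (D : LineCalculus H) (g : ℝ → ℂ) (hg : Integrable g) (a : H →L[ℂ] H) (x : H) :
    smooth D g hg a x = ∫ t, g t • D.wave t (a (D.wave (-t) x)) := rfl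

lemma norm_smooth_le (D : LineCalculus H) (g : ℝ → ℂ) (hg : Integrable g) (a : H →L[ℂ] H) :
    ‖smooth D g hg a‖ ≤ (∫ t, ‖g t‖) * ‖a‖ := by
  unfold smooth
  exact LinearMap.mkContinuous_norm_le _
    (mul_nonneg (integral_nonneg fun _ => norm_nonneg _) (norm_nonneg _)) _

lemma mem_of_commute (M : VonNeumannAlgebra H) (y : H →L[ℂ] H)
    (h : ∀ b : H →L[ℂ] H, (∀ a ∈ M, a * b = b * a) → b * y = y * b) : y ∈ M := by
  rw [← M.commutant_commutant, VonNeumannAlgebra.mem_commutant_iff]
  intro b hb
  exact h b (VonNeumannAlgebra.mem_commutant_iff.1 hb)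

lemma smooth_mem (S : ModularDatum H) (g : ℝ → ℂ) (hg : Integrable g) (a : H →L[ℂ] H)
    (ha : a ∈ S.M) : smooth S.D g hg a ∈ S.M := by
  refine mem_of_commute S.M _ fun b hb => ?_
  ext x
  change b (smooth S.D g hg a x) = smooth S.D g hg a (b x)
  rw [smooth_apply, smooth_apply, ← b.integral_comp_comm (integrable_smooth S.D hg a x)]
  congr 1; ext t
  rw [map_smul]
  congr 1
  have := congrArg (fun T : H →L[ℂ] H => T x) (hb _ (S.flow_mem t a ha))
  exact this.symm

end Crest.Agent.R84
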