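import Crest.Agent.R84.Modular

set_option autoImplicit false

namespace Crest.Agent.R84

open Crest.OpAlg MeasureTheory Filter Topology BoundedContinuousFunction

variable {H : Type*} [NormedAddCommGroup H] [InnerProductSpace ℂ H] [CompleteSpace H]

/-- window average -/
noncomputable def avg {E : Type*} [NormedAddCommGroup E] [NormedSpace ℝ E] (F : ℝ → E) (k : ℕ) :
    E := (2 * (k : ℝ))⁻¹ • ∫ t in (-(k : ℝ))..k, F t

lemma windowMean_eq (f : ℝ → ℝ) (k : ℕ) : windowMean f k = avg f k := by
  have hk : (-(k : ℝ)) ≤ k := by have : (0 : ℝ) ≤ k := Nat.cast_nonneg k; linarith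
  rw [windowMean, setAverage_eq, avg, intervalIntegral.integral_of_le hk,
    integral_Icc_eq_integral_Ioc, Real.volume_real_Icc_of_le hk]
  congr 2; ring

lemma norm_avg_le {E : Type*} [NormedAddCommGroup E] [NormedSpace ℝ E] (F : ℝ → E) {C : ℝ}
    (hC : ∀ t, ‖F t‖ ≤ C) (k : ℕ) : ‖avg F k‖ ≤ C := by
  have hC0 : 0 ≤ C := (norm_nonneg _).trans (hC 0)
  rcases Nat.eq_zero_or_pos k with rfl | hk
  · simp [avg, hC0]
  have hk' : (0 : ℝ) < k := by exact_mod_cast hk
  rw [avg, norm_smul, norm_inv, Real.norm_eq_abs, abs_of_pos (by positivity),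
    inv_mul_le_iff₀ (by positivity)]
  refine (intervalIntegral.norm_integral_le_of_norm_le_const (C := C) fun t _ => hC t).trans ?_
  rw [abs_of_pos (by linarith)]
  exact le_of_eq (by ring)

lemma avg_neg {E : Type*} [NormedAddCommGroup E] [NormedSpace ℝ E] (F : ℝ → E) (k : ℕ) :
    avg (fun t => F (-t)) k = avg F k := by
  simp [avg, intervalIntegral.integral_comp_neg]

lemma avg_shift (F : ℝ → ℂ) (hF : Continuous F) {C : ℝ} (hC : ∀ t, ‖F t‖ ≤ C) (r : ℝ) :
    Tendsto (fun k : ℕ => avg (fun t => F (r + t)) k - avg F k) atTop (𝓝 0) := by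
  have hC0 : 0 ≤ C := (norm_nonneg _).trans (hC 0)
  have hb : ∀ k : ℕ, ‖avg (fun t => F (r + t)) k - avg F k‖ ≤ (C * |r|) * (k : ℝ)⁻¹ := by
    intro k
    have hi : ∀ a b, IntervalIntegrable F volume a b := fun a b => hF.intervalIntegrable a b
    have h1 : (∫ t in (-(k : ℝ))..k, F (r + t)) - ∫ t in (-(k : ℝ))..k, F t =
        (∫ t in (k : ℝ)..(r + k), F t) - ∫ t in (-(k : ℝ))..(r + -k), F t := by
      rw [intervalIntegral.integral_comp_add_left F r]
      rw [← intervalIntegral.integral_add_adjacent_intervals (hi (r + -k) k) (hi k (r + k)),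
        ← intervalIntegral.integral_add_adjacent_intervals (hi (-k) (r + -k)) (hi (r + -k) k)]
      ring
    rw [avg, avg, ← smul_sub, h1, norm_smul, norm_inv, Real.norm_eq_abs,
      abs_of_nonneg (by positivity)]
    have h2 := intervalIntegral.norm_integral_le_of_norm_le_const (a := (k : ℝ)) (b := r + k)
      (C := C) (f := F) fun t _ => hC t
    have h3 := intervalIntegral.norm_integral_le_of_norm_le_const (a := -(k : ℝ)) (b := r + -k)
      (C := C) (f := F) fun t _ => hC t
    simp only [add_sub_cancel_right] at h2 h3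
    calc (2 * (k : ℝ))⁻¹ * ‖(∫ t in (k : ℝ)..(r + k), F t) - ∫ t in (-(k : ℝ))..(r + -k), F t‖
        ≤ (2 * (k : ℝ))⁻¹ * (C * |r| + C * |r|) := by
          gcongr; exact (norm_sub_le _ _).trans (add_le_add h2 h3)
      _ = (C * |r|) * (k : ℝ)⁻¹ := by rw [mul_inv]; ring
  refine squeeze_zero_norm hb ?_
  simpa using (tendsto_inv_atTop_nhds_zero_nat (𝕜 := ℝ)).const_mul (C * |r|)

lemma exists_ultra_lim {E : Type*} [NormedAddCommGroup E] [ProperSpace E] (ω : Ultrafilter ℕ)
    (u : ℕ → E) {C : ℝ} (hC : ∀ k, ‖u k‖ ≤ C) : ∃ l, Tendsto u ω (𝓝 l) := by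
  obtain ⟨l, -, hl⟩ := (isCompact_closedBall (0 : E) C).ultrafilter_le_nhds (ω.map u)
    (by
      rw [Ultrafilter.coe_map, le_principal_iff, Filter.mem_map]
      exact univ_mem' fun k => by simpa using hC k)
  exact ⟨l, hl⟩

/-- weak operator limits along an ultrafilter -/
lemma exists_wot_lim (ω : Ultrafilter ℕ) (A : ℕ → H →L[ℂ] H) {C : ℝ} (hC : ∀ k, ‖A k‖ ≤ C) :
    ∃ y : H →L[ℂ] H, ∀ η η' : H,
      Tendsto (fun k => inner ℂ η (A k η')) ω (𝓝 (inner ℂ η (y η'))) := by
  have hC0 : 0 ≤ C := (norm_nonneg _).trans (hC 0)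
  have hb : ∀ (η' η : H) k, ‖inner ℂ (A k η') η‖ ≤ C * ‖η'‖ * ‖η‖ := fun η' η k =>
    (norm_inner_le_norm _ _).trans (by
      gcongr; exact ((A k).le_opNorm _).trans (by gcongr; exact hC k))
  choose B hB using fun η' η : H => exists_ultra_lim ω (fun k => inner ℂ (A k η') η) (hb η' η)
  have hBn : ∀ η' η, ‖B η' η‖ ≤ C * ‖η'‖ * ‖η‖ := fun η' η =>
    le_of_tendsto' (hB η' η).norm (hb η' η)
  let ℓ : H → StrongDual ℂ H := fun η' => LinearMap.mkContinuous
    { toFun := B η'
      map_add' := fun a b => tendsto_nhds_unique (hB η' (a + b))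
        (by simpa [inner_add_right] using (hB η' a).add (hB η' b))
      map_smul' := fun c a => tendsto_nhds_unique (hB η' (c • a))
        (by simpa [inner_smul_right] using (hB η' a).const_mul c) } (C * ‖η'‖) (hBn η')
  let y : H → H := fun η' => (InnerProductSpace.toDual ℂ H).symm (ℓ η')
  have hy : ∀ η' η, inner ℂ (y η') η = B η' η := fun η' η => by
    simp only [y, InnerProductSpace.toDual_symm_apply]; rfl
  have hy2 : ∀ η η', Tendsto (fun k => inner ℂ η (A k η')) ω (𝓝 (inner ℂ η (y η'))) := by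
    intro η η'
    have := (Complex.continuous_conj.tendsto _).comp (hB η' η)
    rw [← hy, inner_conj_symm] at this
    refine this.congr fun k => ?_
    simp
  refine ⟨LinearMap.mkContinuous
    { toFun := y
      map_add' := fun a b => ext_inner_left ℂ fun η => tendsto_nhds_unique (hy2 η (a + b))
        (by simpa [inner_add_right] using (hy2 η a).add (hy2 η b))
      map_smul' := fun c a => ext_inner_left ℂ fun η => tendsto_nhds_unique (hy2 η (c • a))
        (by simpa [inner_smul_right] using (hy2 η a).const_mul c) } C (fun η' => ?_), hy2⟩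
  change ‖y η'‖ ≤ C * ‖η'‖
  have h1 := hBn η' (y η')
  rw [← hy, inner_self_eq_norm_sq_to_K] at h1
  simp only [norm_pow, RCLike.norm_ofReal, abs_norm] at h1
  by_cases h0 : ‖y η'‖ = 0
  · rw [h0]; positivity
  · have : 0 < ‖y η'‖ := lt_of_le_of_ne (norm_nonneg _) (Ne.symm h0)
    nlinarith

lemma flow_apply (S : ModularDatum H) (t : ℝ) (a : H →L[ℂ] H) (x : H) :
    S.flow t a x = S.D.wave t (a (S.D.wave (-t) x)) := rfl

lemma continuous_flow (S : ModularDatum H) (a : H →L[ℂ] H) (x : H) :
    Continuous fun t => S.flow t a x :=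
  continuous_wave₂ S.D continuous_id (a.continuous.comp ((continuous_wave S.D x).comp continuous_neg))

lemma norm_flow_apply_le (S : ModularDatum H) (a : H →L[ℂ] H) (x : H) (t : ℝ) :
    ‖S.flow t a x‖ ≤ ‖a‖ * ‖x‖ := by
  rw [flow_apply, norm_wave]
  exact (a.le_opNorm _).trans (by rw [norm_wave])

lemma exists_avg_op (S : ModularDatum H) (x : H →L[ℂ] H) (hx : x ∈ S.M) (k : ℕ) :
    ∃ A : H →L[ℂ] H, A ∈ S.M ∧ ‖A‖ ≤ ‖x‖ ∧
      ∀ η η' : H, inner ℂ η (A η') = avg (fun t => inner ℂ η (S.flow t x η')) k := by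
  have hk : (-(k : ℝ)) ≤ k := by have : (0 : ℝ) ≤ k := Nat.cast_nonneg k; linarith
  let g : ℝ → ℂ := (Set.Ioc (-(k : ℝ)) k).indicator fun _ => (((2 * (k : ℝ))⁻¹ : ℝ) : ℂ)
  have hg : Integrable g := by
    refine IntegrableOn.integrable_indicator ?_ measurableSet_Ioc
    exact integrableOn_const (by simp)
  have h1 : ∀ η η' : H, inner ℂ η (smooth S.D g hg x η') =
      avg (fun t => inner ℂ η (S.flow t x η')) k := by
    intro η η'
    rw [smooth_apply, ← integral_inner (integrable_smooth S.D hg x η'), avg,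
      intervalIntegral.integral_of_le hk, ← integral_smul, ← integral_indicator measurableSet_Ioc]
    congr 1; ext t
    by_cases ht : t ∈ Set.Ioc (-(k : ℝ)) k
    · simp only [g, Set.indicator_of_mem ht, inner_smul_right, flow_apply, Complex.real_smul]
    · simp only [g, Set.indicator_of_notMem ht, zero_smul, inner_zero_right]
  refine ⟨smooth S.D g hg x, smooth_mem S g hg x hx, ?_, h1⟩
  refine ContinuousLinearMap.opNorm_le_bound _ (norm_nonneg _) fun η' => ?_
  set w := smooth S.D g hg x η'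
  have h2 : ‖inner ℂ w w‖ ≤ ‖w‖ * (‖x‖ * ‖η'‖) := by
    conv_lhs => rw [show inner ℂ w w = inner ℂ w (smooth S.D g hg x η') from rfl, h1]
    refine norm_avg_le _ (fun t => (norm_inner_le_norm _ _).trans ?_) k
    gcongr; exact norm_flow_apply_le S x η' t
  rw [inner_self_eq_norm_sq_to_K] at h2
  simp only [norm_pow, RCLike.norm_ofReal, abs_norm] at h2
  by_cases h0 : ‖w‖ = 0
  · rw [h0]; positivity
  · have : 0 < ‖w‖ := lt_of_le_of_ne (norm_nonneg _) (Ne.symm h0)
    nlinarith

lemma ergodic_avg (S : ModularDatum H) (herg : S.Ergodic) (ω : Ultrafilter ℕ)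
    (hω : (ω : Filter ℕ) ≤ atTop) (x : H →L[ℂ] H) (hx : x ∈ S.M) (η η' : H) :
    Tendsto (avg fun t => inner ℂ η (S.flow t x η')) ω
      (𝓝 (inner ℂ S.vac (x S.vac) * inner ℂ η η')) := by
  choose A hAM hAn hA using exists_avg_op S x hx
  obtain ⟨y, hy⟩ := exists_wot_lim ω A hAn
  have hyM : y ∈ S.M := by
    refine mem_of_commute S.M y fun b hb => ?_
    ext ζ
    refine ext_inner_left ℂ fun η => ?_
    have h1 := hy (ContinuousLinearMap.adjoint b η) ζ
    have h2 := hy η (b ζ)
    simp only [ContinuousLinearMap.adjoint_inner_left] at h1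
    refine tendsto_nhds_unique h1 (h2.congr fun k => ?_)
    have := congrArg (fun T : H →L[ℂ] H => T ζ) (hb _ (hAM k))
    exact congrArg _ this
  have hinv : ∀ r, S.flow r y = y := by
    intro r
    ext ζ
    refine ext_inner_left ℂ fun η => ?_
    rw [flow_apply, inner_wave_right]
    have h1 := hy (S.D.wave (-r) η) (S.D.wave (-r) ζ)
    have h2 := hy η ζ
    have h3 := (avg_shift (fun t => inner ℂ η (S.flow t x ζ))
      (continuous_const.inner (continuous_flow S x ζ)) (C := ‖η‖ * (‖x‖ * ‖ζ‖))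
      (fun t => (norm_inner_le_norm _ _).trans (by gcongr; exact norm_flow_apply_le S x ζ t))
      r).mono_left hω
    have h4 := h3.add h2
    rw [zero_add] at h4
    refine tendsto_nhds_unique h1 (h4.congr fun k => ?_)
    rw [hA, hA, sub_add_cancel]
    congr 1; ext t
    rw [← inner_wave_right, flow_apply, flow_apply, wave_wave, wave_wave]
    rw [show -t + -r = -(r + t) by ring]
  obtain ⟨c, hc⟩ := herg y hyM hinv
  have hvv : inner ℂ S.vac S.vac = 1 := by
    rw [inner_self_eq_norm_sq_to_K, S.norm_vac]; simp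
  have hc2 : c = inner ℂ S.vac (x S.vac) := by
    have h1 := hy S.vac S.vac
    rw [hc] at h1
    simp only [_root_.smul_apply, one_apply_eq_self, inner_smul_right, hvv, mul_one] at h1
    refine tendsto_nhds_unique h1 (tendsto_const_nhds.congr' ?_)
    filter_upwards [hω (eventually_gt_atTop 0)] with k hk
    have hk' : (k : ℂ) ≠ 0 := by exact_mod_cast (ne_of_gt hk)
    rw [hA]
    simp only [flow_apply, inner_wave_right, wave_vac, avg, intervalIntegral.integral_const,
      Complex.real_smul]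
    push_cast
    field_simp
    ring
  have h1 := hy η η'
  rw [hc] at h1
  simp only [_root_.smul_apply, one_apply_eq_self, inner_smul_right, hc2] at h1
  exact h1.congr fun k => hA k η η'

end Crest.Agent.R84
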