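import Crest.Agent.R84.Step
import Crest.Agent.R84.Bump

set_option autoImplicit false

namespace Crest.Agent.R84

open Crest.OpAlg MeasureTheory Filter Topology

variable {H : Type*} [NormedAddCommGroup H] [InnerProductSpace ℂ H] [CompleteSpace H]

lemma iterate (S : ModularDatum H) (herg : S.Ergodic) (ω : Ultrafilter ℕ)
    (hω : (ω : Filter ℕ) ≤ atTop) (T : H →L[ℂ] H) {K : Set ℝ} {κ : ℝ} (hκ0 : 0 ≤ κ)
    (hκ : ∀ v ∈ S.M, S.D.SupportedIn K (v S.vac) → ‖star v S.vac‖ ^ 2 ≤ κ * ‖v S.vac‖ ^ 2)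
    (a : H →L[ℂ] H) (ha : a ∈ S.M) (haK : S.D.SupportedIn K (a S.vac))
    (F : ℝ → ℝ) (hF : Continuous F) {e : ℝ} (hFa : ∀ t, F t - e ≤ ‖T (S.D.wave t (a S.vac))‖ ^ 2)
    {m : ℝ} (hm : Tendsto (avg F) ω (𝓝 m))
    {lam : ℝ} (hlam : 0 ≤ lam) {ε : ℝ} (hε : 0 < ε) (N : ℕ) (k : ℕ) (hk : k ≤ N) :
    ∃ v ∈ S.M, S.D.SupportedIn K (v S.vac) ∧
      k * (m - e - lam * ‖(star a * a) S.vac‖ ^ 2 -
        lam * (2 + 4 * κ) * (‖a S.vac‖ ^ 2) ^ 2 * N - ε) ≤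
      pot S T lam (lam * (2 + 4 * κ) * ‖a S.vac‖ ^ 2 * (N - k)) v := by
  induction k with
  | zero =>
    refine ⟨0, zero_mem _, fun f _ => by simp, ?_⟩
    simp [pot]
  | succ k ih =>
    obtain ⟨v, hv, hvK, hpot⟩ := ih (by omega)
    obtain ⟨v', hv', hv'K, hpot'⟩ := step S herg ω hω T hκ a ha haK F hF hFa hm hlam
      (lam * (2 + 4 * κ) * ‖a S.vac‖ ^ 2 * (N - (k + 1 : ℕ))) hε v hv hvK
    refine ⟨v', hv', hv'K, le_trans ?_ hpot'⟩
    simp only [pot] at hpot ⊢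
    rw [Nat.cast_succ]
    have : 0 ≤ lam * (2 + 4 * κ) * (‖a S.vac‖ ^ 2) ^ 2 * ((k : ℝ) + 1) := by positivity
    nlinarith

lemma exists_good (S : ModularDatum H) (herg : S.Ergodic) (ω : Ultrafilter ℕ)
    (hω : (ω : Filter ℕ) ≤ atTop) (T : H →L[ℂ] H) {K : Set ℝ} {κ : ℝ} (hκ0 : 0 ≤ κ)
    (hκ : ∀ v ∈ S.M, S.D.SupportedIn K (v S.vac) → ‖star v S.vac‖ ^ 2 ≤ κ * ‖v S.vac‖ ^ 2)
    (a : H →L[ℂ] H) (ha : a ∈ S.M) (haK : S.D.SupportedIn K (a S.vac)) (ha2 : ‖a S.vac‖ ≤ 2)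
    (F : ℝ → ℝ) (hF : Continuous F) {c : ℝ} (hc : 0 < c)
    (hFa : ∀ t, F t - c / 8 ≤ ‖T (S.D.wave t (a S.vac))‖ ^ 2)
    {m : ℝ} (hm : Tendsto (avg F) ω (𝓝 m)) (hcm : c ≤ m) :
    ∃ w ∈ S.M, S.D.SupportedIn K (w S.vac) ∧
      c / 2 ≤ ‖T (w S.vac)‖ ^ 2 - c / (128 * (2 + 4 * κ)) * ‖(star w * w) S.vac‖ ^ 2 := by
  set l0 := c / (128 * (2 + 4 * κ)) with hl0
  have hl0p : 0 < l0 := by positivity
  set β := ‖(star a * a) S.vac‖ ^ 2 with hβ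
  obtain ⟨N, hN⟩ := exists_nat_gt (8 * l0 * β / c)
  have hN0 : (0 : ℝ) < N := lt_of_le_of_lt (by positivity) hN
  obtain ⟨v, hv, hvK, hpot⟩ := iterate S herg ω hω T hκ0 hκ a ha haK F hF hFa hm
    (lam := l0 / N) (by positivity) (ε := c / 8) (by positivity) N N le_rfl
  set r : ℝ := (Real.sqrt N)⁻¹ with hr
  have hr2 : r ^ 2 = (N : ℝ)⁻¹ := by rw [hr, inv_pow, Real.sq_sqrt hN0.le]
  refine ⟨(r : ℂ) • v, S.M.toStarSubalgebra.smul_mem hv _, supported_smul _ hvK _, ?_⟩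
  have e1 : ‖T (((r : ℂ) • v) S.vac)‖ ^ 2 = (N : ℝ)⁻¹ * ‖T (v S.vac)‖ ^ 2 := by
    simp only [smul_apply, map_smul, norm_smul, mul_pow, Complex.norm_real, Real.norm_eq_abs,
      sq_abs, hr2]
  have e2 : ‖(star ((r : ℂ) • v) * ((r : ℂ) • v)) S.vac‖ ^ 2 =
      (N : ℝ)⁻¹ * (N : ℝ)⁻¹ * ‖(star v * v) S.vac‖ ^ 2 := by
    simp only [star_smul, smul_mul_assoc, mul_smul_comm, smul_apply, norm_smul, mul_pow, norm_star,
      Complex.norm_real, Real.norm_eq_abs, sq_abs, hr2, mul_assoc]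
  rw [e1, e2]
  simp only [pot, sub_self, mul_zero, zero_mul, sub_zero] at hpot
  rw [← hβ] at hpot
  have h1 : l0 / N * β ≤ c / 8 := by
    rw [div_lt_iff₀ hc] at hN
    rw [div_mul_eq_mul_div, div_le_div_iff₀ hN0 (by norm_num)]
    nlinarith
  have h2 : l0 / N * (2 + 4 * κ) * (‖a S.vac‖ ^ 2) ^ 2 * N ≤ c / 8 := by
    have : (‖a S.vac‖ ^ 2) ^ 2 ≤ 16 := by
      calc (‖a S.vac‖ ^ 2) ^ 2 ≤ (2 ^ 2) ^ 2 := by gcongr
        _ = 16 := by norm_num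
    have e : l0 / N * (2 + 4 * κ) * (‖a S.vac‖ ^ 2) ^ 2 * N = c / 128 * (‖a S.vac‖ ^ 2) ^ 2 := by
      rw [hl0]; field_simp
    rw [e]; nlinarith
  have h3 : (N : ℝ) * (c / 2) ≤ ‖T (v S.vac)‖ ^ 2 - l0 / N * ‖(star v * v) S.vac‖ ^ 2 := by
    refine le_trans ?_ hpot
    gcongr
    linarith
  have h4 := mul_le_mul_of_nonneg_left h3 (inv_nonneg.2 hN0.le)
  rw [← mul_assoc, inv_mul_cancel₀ hN0.ne', one_mul] at h4
  refine h4.trans (le_of_eq ?_)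
  rw [div_eq_mul_inv]; ring

lemma truncate (M : VonNeumannAlgebra H) (w : H →L[ℂ] H) (hw : w ∈ M) {θ : ℝ} (hθ : 0 < θ) :
    ∃ w' ∈ M, ‖w'‖ ≤ 1 / (2 * θ) ∧ ∀ ξ : H, ‖w ξ - w' ξ‖ ≤ θ * ‖(star w * w) ξ‖ := by
  set P : H →L[ℂ] H := 1 + ((2 * θ ^ 2 : ℝ) : ℂ) • (star w * w) with hP
  have hPy : ∀ y, P y = y + ((2 * θ ^ 2 : ℝ) : ℂ) • (star w * w) y := fun y => rfl
  have hin : ∀ y, inner ℂ y (P y) = ((‖y‖ ^ 2 + 2 * θ ^ 2 * ‖w y‖ ^ 2 : ℝ) : ℂ) := by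
    intro y
    rw [hPy, inner_add_right, inner_smul_right, inner_star_mul_self, inner_self_eq_norm_sq_to_K]
    push_cast; rfl
  have hu : IsUnit P := by
    refine ContinuousLinearMap.isUnit_of_forall_le_norm_inner_map P (c := 1) one_pos fun y => ?_
    rw [← inner_conj_symm, RCLike.norm_conj, hin, Complex.norm_real, Real.norm_eq_abs,
      abs_of_nonneg (by positivity)]
    have : 0 ≤ 2 * θ ^ 2 * ‖w y‖ ^ 2 := by positivity
    simp only [NNReal.coe_one, mul_one]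
    linarith
  obtain ⟨u, hu⟩ := hu
  set R : H →L[ℂ] H := (↑u⁻¹ : H →L[ℂ] H) with hR
  have hPR : P * R = 1 := by rw [← hu, hR]; exact u.mul_inv
  have hRP : R * P = 1 := by rw [← hu, hR]; exact u.inv_mul
  have hPM : P ∈ M := add_mem (one_mem _)
    (M.toStarSubalgebra.smul_mem (mul_mem (star_mem hw) hw) _)
  have hRM : R ∈ M := mem_of_commute M R fun b hb => by
    have h1 := hb P hPM
    calc b * R = (R * P) * b * R := by rw [hRP, one_mul]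
      _ = R * (b * P) * R := by rw [← h1]; simp only [mul_assoc]
      _ = R * b * (P * R) := by simp only [mul_assoc]
      _ = R * b := by rw [hPR, mul_one]
  have hn : ‖w * R‖ ≤ 1 / (2 * θ) := by
    refine ContinuousLinearMap.opNorm_le_bound _ (by positivity) fun x => ?_
    set y := R x with hy
    have hx : x = P y := by
      rw [hy]; exact (congrArg (fun A : H →L[ℂ] H => A x) hPR).symm
    change ‖w y‖ ≤ _
    have h1 := norm_add_sq (𝕜 := ℂ) y (((2 * θ ^ 2 : ℝ) : ℂ) • (star w * w) y)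
    rw [← hPy, ← hx, inner_smul_right, inner_star_mul_self, ← Complex.ofReal_mul,
      RCLike.re_to_complex, Complex.ofReal_re] at h1
    have h2 : (2 * θ * ‖w y‖) ^ 2 ≤ ‖x‖ ^ 2 := by
      rw [h1]; nlinarith [sq_nonneg ‖y‖, sq_nonneg ‖((2 * θ ^ 2 : ℝ) : ℂ) • (star w * w) y‖]
    have h3 := abs_le_of_sq_le_sq' h2 (norm_nonneg _) |>.2
    rw [one_div, le_inv_mul_iff₀ (by positivity)]
    exact h3
  refine ⟨w * R, mul_mem hw hRM, hn, fun ξ => ?_⟩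
  have h1 : w ξ - (w * R) ξ = ((2 * θ ^ 2 : ℝ) : ℂ) • (w * R) ((star w * w) ξ) := by
    have h2 : R (P ξ) = ξ := congrArg (fun A : H →L[ℂ] H => A ξ) hRP
    rw [hPy, map_add, map_smul] at h2
    change w ξ - w (R ξ) = _ • w (R ((star w * w) ξ))
    rw [← map_smul, ← map_sub]
    congr 1
    rw [sub_eq_iff_eq_add']; exact h2.symm
  rw [h1, norm_smul, Complex.norm_real, Real.norm_eq_abs, abs_of_nonneg (by positivity)]
  calc 2 * θ ^ 2 * ‖(w * R) ((star w * w) ξ)‖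
      ≤ 2 * θ ^ 2 * (1 / (2 * θ) * ‖(star w * w) ξ‖) := by
        gcongr; exact ((w * R).le_opNorm _).trans (by gcongr)
    _ = θ * ‖(star w * w) ξ‖ := by field_simp

/-- The statement for one band. -/
lemma one_band (S : ModularDatum H) (herg : S.Ergodic) (ω : Ultrafilter ℕ)
    (hω : (ω : Filter ℕ) ≤ atTop) (T : H →L[ℂ] H) (s : ℝ) {c : ℝ} (hc : 0 < c) :
    ∃ C η : ℝ, 0 < η ∧ ∀ δ : ℝ, 0 < δ → δ ≤ 1 → ∀ h : H, ‖h‖ = 1 →
      S.D.SupportedIn (Set.Icc (s - δ) (s + δ)) h →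
      c ≤ ultraMean ω (fun t : ℝ => ‖T (S.D.wave t h)‖ ^ 2) →
      ∃ v ∈ S.M, ‖v‖ ≤ C ∧ η ≤ ‖T (v S.vac)‖ ∧
        S.D.SupportedIn (Set.Icc (s - 4 * δ) (s + 4 * δ)) (v S.vac) := by
  obtain ⟨G, hG0, hG⟩ := exists_bump
  set κ : ℝ := Real.exp (s + 2) with hκdef
  have hκ0 : 0 ≤ κ := (Real.exp_pos _).le
  set l0 := c / (128 * (2 + 4 * κ)) with hl0
  have hl0p : 0 < l0 := by positivity
  set X0 := ‖T‖ ^ 2 / l0 with hX0
  have hX0p : 0 ≤ X0 := by positivity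
  set η := Real.sqrt (c / 2) / 2 with hη
  have hηp : 0 < η := by positivity
  set θ := η / (‖T‖ * X0 + 1) with hθ
  have hθp : 0 < θ := by positivity
  refine ⟨G * (1 / (2 * θ)), η, hηp, fun δ hδ hδ1 h hh hband hmean => ?_⟩
  -- the mean is a genuine limit
  set F : ℝ → ℝ := fun t => ‖T (S.D.wave t h)‖ ^ 2 with hF
  have hFc : Continuous F := (T.continuous.comp (continuous_wave S.D h)).norm.pow 2
  have hm : Tendsto (avg F) ω (𝓝 (ultraMean ω F)) := by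
    have hb : ∀ t, ‖F t‖ ≤ ‖T‖ ^ 2 := fun t => by
      rw [Real.norm_eq_abs, abs_of_nonneg (by positivity)]
      have : ‖T (S.D.wave t h)‖ ≤ ‖T‖ := (T.le_opNorm _).trans (by rw [norm_wave, hh, mul_one])
      simp only [hF]; gcongr
    have e : windowMean F = avg F := funext (windowMean_eq F)
    rw [ultraMean, e]
    exact tendsto_nhds_limUnder (exists_ultra_lim ω _ (norm_avg_le F hb))
  -- approximate `h` by a band-limited element of the algebra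
  obtain ⟨g, ψ, hg, -, hgψ, hψ1, hψ2, hψ3⟩ := hG s δ hδ
  set ε' := min 1 (c / (8 * (3 * ‖T‖ ^ 2 + 1))) with hε'
  have hε'p : 0 < ε' := lt_min one_pos (by positivity)
  obtain ⟨_, ⟨a0, rfl⟩, ha0⟩ := Metric.mem_closure_iff.1 (S.cyclic h) ε' hε'p
  set a := smooth S.D g hg (a0 : H →L[ℂ] H) with ha
  have haM : a ∈ S.M := smooth_mem S g hg _ a0.2
  have hav : a S.vac = S.D.apply ψ ((a0 : H →L[ℂ] H) S.vac) := smooth_vac S g hg ψ hgψ _
  have haK : S.D.SupportedIn (Set.Icc (s - 2 * δ) (s + 2 * δ)) (a S.vac) := by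
    rw [hav]; exact supported_apply _ ψ hψ3 _
  have hah : ‖h - a S.vac‖ ≤ ε' := by
    rw [hav, ← apply_eq_self S.D hband ψ hψ2, ← map_sub]
    refine (norm_apply_apply_le _ _ _).trans ?_
    rw [dist_eq_norm] at ha0
    calc ‖ψ‖ * ‖h - (a0 : H →L[ℂ] H) S.vac‖ ≤ 1 * ε' := by gcongr
      _ = ε' := one_mul _
  have ha2 : ‖a S.vac‖ ≤ 2 := by
    have := norm_sub_norm_le (a S.vac) h
    rw [norm_sub_rev] at this
    linarith [min_le_left 1 (c / (8 * (3 * ‖T‖ ^ 2 + 1)))]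
  have hκ : ∀ v ∈ S.M, S.D.SupportedIn (Set.Icc (s - 2 * δ) (s + 2 * δ)) (v S.vac) →
      ‖star v S.vac‖ ^ 2 ≤ κ * ‖v S.vac‖ ^ 2 := by
    intro v hv hvK
    have h1 := norm_star_vac_le S v hv hvK
    calc ‖star v S.vac‖ ^ 2 ≤ (Real.exp ((s + 2 * δ) / 2) * ‖v S.vac‖) ^ 2 := by gcongr
      _ = Real.exp (s + 2 * δ) * ‖v S.vac‖ ^ 2 := by
          rw [mul_pow, sq (Real.exp _), ← Real.exp_add, add_halves]
      _ ≤ κ * ‖v S.vac‖ ^ 2 := by gcongr; rw [hκdef]; gcongr; linarith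
  have hFa : ∀ t, F t - c / 8 ≤ ‖T (S.D.wave t (a S.vac))‖ ^ 2 := by
    intro t
    have h1 : ‖T (S.D.wave t h)‖ ≤ ‖T‖ := (T.le_opNorm _).trans (by rw [norm_wave, hh, mul_one])
    have h2 : ‖T (S.D.wave t (a S.vac))‖ ≤ ‖T‖ * 2 :=
      (T.le_opNorm _).trans (by rw [norm_wave]; gcongr)
    have h3 : ‖T (S.D.wave t h)‖ - ‖T (S.D.wave t (a S.vac))‖ ≤ ‖T‖ * ε' := by
      refine (norm_sub_norm_le _ _).trans ?_
      rw [← map_sub, ← map_sub]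
      exact (T.le_opNorm _).trans (by rw [norm_wave]; gcongr)
    have h4 : 3 * ‖T‖ ^ 2 * ε' ≤ c / 8 := by
      have : ε' ≤ c / (8 * (3 * ‖T‖ ^ 2 + 1)) := min_le_right _ _
      rw [le_div_iff₀ (by positivity)] at this
      nlinarith
    have h5 := mul_le_mul h3 (add_le_add h1 h2) (by positivity) (by positivity)
    simp only [hF]
    nlinarith
  obtain ⟨w, hwM, hwK, hw⟩ := exists_good S herg ω hω T hκ0 hκ a haM haK ha2 F hFc hc hFa hm hmean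
  rw [← hl0] at hw
  set X := ‖(star w * w) S.vac‖ with hX
  have hX1 : ‖w S.vac‖ ^ 2 ≤ X := by
    have h1 := norm_inner_le_norm (𝕜 := ℂ) S.vac ((star w * w) S.vac)
    rw [inner_star_mul_self, S.norm_vac, one_mul, Complex.norm_real, Real.norm_eq_abs,
      abs_of_nonneg (by positivity)] at h1
    exact h1
  have hX2 : X ≤ X0 := by
    have h1 : ‖T (w S.vac)‖ ^ 2 ≤ ‖T‖ ^ 2 * X := by
      calc ‖T (w S.vac)‖ ^ 2 ≤ (‖T‖ * ‖w S.vac‖) ^ 2 := by gcongr; exact T.le_opNorm _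
        _ = ‖T‖ ^ 2 * ‖w S.vac‖ ^ 2 := by ring
        _ ≤ ‖T‖ ^ 2 * X := by gcongr
    by_contra hcon
    push Not at hcon
    rw [hX0, div_lt_iff₀ hl0p] at hcon
    have hXp : 0 ≤ X := norm_nonneg _
    nlinarith [mul_le_mul_of_nonneg_left hcon.le hXp]
  have hTw : 2 * η ≤ ‖T (w S.vac)‖ := by
    rw [hη, mul_div_cancel₀ _ two_ne_zero]
    apply Real.sqrt_le_iff.2 ⟨norm_nonneg _, _⟩
    nlinarith [mul_nonneg hl0p.le (sq_nonneg X)]
  obtain ⟨w', hw'M, hw'n, hw'⟩ := truncate S.M w hwM hθp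
  obtain ⟨g', ψ', hg', hg'G, hgψ', hψ1', hψ2', hψ3'⟩ := hG s (2 * δ) (by positivity)
  have hv : smooth S.D g' hg' w' S.vac = S.D.apply ψ' (w' S.vac) := smooth_vac S g' hg' ψ' hgψ' _
  refine ⟨smooth S.D g' hg' w', smooth_mem S g' hg' _ hw'M, ?_, ?_, ?_⟩
  · refine (norm_smooth_le _ _ _ _).trans ?_
    gcongr
  · have h1 : ‖w S.vac - smooth S.D g' hg' w' S.vac‖ ≤ θ * X0 := by
      rw [hv, ← apply_eq_self S.D hwK ψ' hψ2', ← map_sub]
      refine (norm_apply_apply_le _ _ _).trans ?_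
      calc ‖ψ'‖ * ‖w S.vac - w' S.vac‖ ≤ 1 * (θ * X0) := by
            gcongr
            exact (hw' _).trans (by gcongr)
        _ = θ * X0 := one_mul _
    have h2 : ‖T (w S.vac)‖ - ‖T (smooth S.D g' hg' w' S.vac)‖ ≤ ‖T‖ * (θ * X0) := by
      refine (norm_sub_norm_le _ _).trans ?_
      rw [← map_sub]
      exact (T.le_opNorm _).trans (by gcongr)
    have h3 : ‖T‖ * (θ * X0) ≤ η := by
      have : θ * (‖T‖ * X0 + 1) = η := by rw [hθ]; field_simp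
      nlinarith
    linarith
  · rw [hv]
    refine supported_apply _ ψ' (fun u hu => hψ3' u ?_) _
    rwa [show 2 * (2 * δ) = 4 * δ by ring]

end Crest.Agent.R84
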