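import Crest.Agent.R84.Calc

set_option autoImplicit false

namespace Crest.Agent.R84

open Crest.OpAlg MeasureTheory Filter Topology BoundedContinuousFunction

variable {H : Type*} [NormedAddCommGroup H] [InnerProductSpace ℂ H] [CompleteSpace H]

local notation "χ" => LineCalculus.character

/-- a compactly supported continuous function times a continuous function, as a bounded one -/
noncomputable def mulC (f : ℝ →ᵇ ℂ) (hf : HasCompactSupport (f : ℝ → ℂ)) (q : ℝ → ℂ)
    (hq : Continuous q) : ℝ →ᵇ ℂ :=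
  ofCompactSupport (fun u => f u * q u) (f.continuous.mul hq) hf.mul_right

@[simp] lemma mulC_apply (f : ℝ →ᵇ ℂ) (hf : HasCompactSupport (f : ℝ → ℂ)) (q : ℝ → ℂ)
    (hq : Continuous q) (u : ℝ) : mulC f hf q hq u = f u * q u := rfl

lemma mulC_compact (f : ℝ →ᵇ ℂ) (hf : HasCompactSupport (f : ℝ → ℂ)) (q : ℝ → ℂ)
    (hq : Continuous q) : HasCompactSupport (mulC f hf q hq : ℝ → ℂ) := hf.mul_right

lemma continuous_halfExp : Continuous fun u : ℝ => ((Real.exp (u / 2) : ℝ) : ℂ) := by fun_prop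

lemma inner_J (S : ModularDatum H) (x y : H) : inner ℂ (S.J x) (S.J y) = inner ℂ y x := by
  have h1 : ‖S.J x + S.J y‖ = ‖x + y‖ := by rw [← map_add, S.J.norm_map]
  have h2 : ‖S.J x - S.J y‖ = ‖x - y‖ := by rw [← map_sub, S.J.norm_map]
  have h3 : ‖S.J x + (RCLike.I : ℂ) • S.J y‖ = ‖x - (RCLike.I : ℂ) • y‖ := by
    rw [← S.J.norm_map (x - _), map_sub, map_smulₛₗ]; simp
  have h4 : ‖S.J x - (RCLike.I : ℂ) • S.J y‖ = ‖x + (RCLike.I : ℂ) • y‖ := by
    rw [← S.J.norm_map (x + _), map_add, map_smulₛₗ]; simp [sub_eq_add_neg]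
  rw [← inner_conj_symm y x, inner_eq_sum_norm_sq_div_four, inner_eq_sum_norm_sq_div_four,
    h1, h2, h3, h4]
  simp only [map_div₀, map_add, map_sub, map_mul, map_pow, RCLike.conj_ofReal, RCLike.conj_I,
    map_ofNat]
  ring

lemma halfExp_of_mem (S : ModularDatum H) (a : H →L[ℂ] H) (ha : a ∈ S.M) :
    S.D.HalfExp (a S.vac) (S.J (star a S.vac)) := by
  have : (a S.vac, star a S.vac) ∈ closure (Set.range fun a : S.M =>
      ((a : H →L[ℂ] H) S.vac, star (a : H →L[ℂ] H) S.vac)) := subset_closure ⟨⟨a, ha⟩, rfl⟩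
  rw [S.tomita] at this
  exact this

lemma inner_of_halfExp (S : ModularDatum H) (x y : H) (h : S.D.HalfExp x (S.J y)) :
    inner ℂ y S.vac = inner ℂ S.vac x := by
  have h1 : (x, y) ∈ closure (Set.range fun a : S.M =>
      ((a : H →L[ℂ] H) S.vac, star (a : H →L[ℂ] H) S.vac)) := by
    rw [S.tomita]; exact h
  have h2 : IsClosed {p : H × H | inner ℂ p.2 S.vac = inner ℂ S.vac p.1} :=
    isClosed_eq (by fun_prop) (by fun_prop)
  refine (closure_minimal ?_ h2) h1
  rintro _ ⟨a, rfl⟩
  simp [ContinuousLinearMap.star_eq_adjoint, ContinuousLinearMap.adjoint_inner_left]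

lemma inner_apply_right (D : LineCalculus H) (f : ℝ →ᵇ ℂ) (x y : H) :
    inner ℂ x (D.apply f y) = inner ℂ (D.apply (star f) x) y := by
  rw [map_star, ContinuousLinearMap.star_eq_adjoint, ContinuousLinearMap.adjoint_inner_left]

lemma exp_sub_one_vac (S : ModularDatum H) (f : ℝ →ᵇ ℂ) (hf : HasCompactSupport (f : ℝ → ℂ)) :
    S.D.apply (mulC f hf (fun u => ((Real.exp u : ℝ) : ℂ) - 1) (by fun_prop)) S.vac = 0 := by
  have hf' : HasCompactSupport ((star f : ℝ →ᵇ ℂ) : ℝ → ℂ) :=
    hf.comp_left (g := fun z : ℂ => star z) (by simp)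
  have h1 : S.D.apply (mulC f hf _ continuous_halfExp) (S.J S.vac) = S.D.apply f S.vac := by
    refine ext_inner_right ℂ fun y => ?_
    have hE : S.D.HalfExp (S.D.apply (star f) y)
        (S.J (S.J (S.D.apply (mulC (star f) hf' _ continuous_halfExp) y))) := by
      rw [S.J_J]
      intro f' g' hfg
      rw [← apply_mul_apply, ← apply_mul_apply]
      congr 2
      ext u
      simp [hfg]; ring
    have h2 := inner_of_halfExp S _ _ hE
    rw [← S.J_J S.vac, inner_J, S.J_J, inner_apply_right, inner_apply_right, star_star] at h2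
    rw [← h2]
    congr 3
    ext u
    simp only [mulC_apply, coe_star, Pi.star_apply, star_mul', star_star, RCLike.star_def,
      Complex.conj_ofReal, Complex.conj_conj]
  have h2 := halfExp_of_mem S 1 (one_mem _) (mulC f hf _ continuous_halfExp)
    (mulC _ (mulC_compact f hf _ continuous_halfExp) _ continuous_halfExp) (fun u => rfl)
  simp only [star_one, one_apply_eq_self] at h2
  rw [h1] at h2
  have h3 : mulC f hf (fun u => ((Real.exp u : ℝ) : ℂ) - 1) (by fun_prop) =
      mulC _ (mulC_compact f hf _ continuous_halfExp) _ continuous_halfExp - f := by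
    ext u
    simp only [mulC_apply, coe_sub, Pi.sub_apply, mul_assoc, ← Complex.ofReal_mul, ← Real.exp_add,
      add_halves]
    ring
  rw [h3, map_sub, _root_.sub_apply, ← h2, sub_self]

lemma exists_quot (t : ℝ) : ∃ q : ℝ → ℂ, Continuous q ∧
    ∀ u, (χ t) u - 1 = q u * (((Real.exp u : ℝ) : ℂ) - 1) := by
  let A : ℝ → ℂ := fun u => Complex.exp (Complex.I * ((t * u : ℝ) : ℂ))
  have hA : Differentiable ℝ A := by
    simp only [A]; push_cast
    exact (((Complex.ofRealCLM.differentiable.const_mul _).const_mul _)).cexp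
  have hdA : Continuous (dslope A 0) := by
    rw [← continuousOn_univ]
    exact (continuousOn_dslope univ_mem).2 ⟨hA.continuous.continuousOn, hA 0⟩
  have hdB : Continuous (dslope Real.exp 0) := by
    rw [← continuousOn_univ]
    exact (continuousOn_dslope univ_mem).2
      ⟨Real.continuous_exp.continuousOn, Real.differentiable_exp 0⟩
  have hB : ∀ u, u * dslope Real.exp 0 u = Real.exp u - 1 := fun u => by
    simpa using sub_smul_dslope Real.exp 0 u
  have hB0 : ∀ u, dslope Real.exp 0 u ≠ 0 := fun u => by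
    by_cases hu : u = 0
    · subst hu; simp
    · intro h
      have := hB u
      rw [h, mul_zero] at this
      exact hu (Real.exp_eq_one_iff u |>.1 (by linarith))
  refine ⟨fun u => dslope A 0 u / ((dslope Real.exp 0 u : ℝ) : ℂ),
    hdA.div (Complex.continuous_ofReal.comp hdB) (fun u => by exact_mod_cast hB0 u), fun u => ?_⟩
  have h1 : (u : ℂ) * dslope A 0 u = (χ t) u - 1 := by
    have := sub_smul_dslope A 0 u
    simpa [A, character_apply] using this
  have h2 : (((Real.exp u : ℝ) : ℂ) - 1) = (u : ℂ) * ((dslope Real.exp 0 u : ℝ) : ℂ) := by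
    exact_mod_cast (hB u).symm
  have h3 : ((dslope Real.exp 0 u : ℝ) : ℂ) ≠ 0 := by exact_mod_cast hB0 u
  rw [h2, ← h1]
  field_simp

lemma wave_vac (S : ModularDatum H) (t : ℝ) : S.D.wave t S.vac = S.vac := by
  apply eq_of_sub_eq_zero
  apply eq_zero_of_compact S.D
  intro f hf
  obtain ⟨q, hq, hq2⟩ := exists_quot t
  have h := exp_sub_one_vac S (mulC f hf q hq) (mulC_compact f hf q hq)
  have h2 : S.D.wave t S.vac - S.vac = S.D.apply (χ t - 1) S.vac := by
    simp [LineCalculus.wave]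
  rw [h2, ← apply_mul_apply, ← h]
  congr 2
  ext u
  simp only [coe_mul, coe_sub, Pi.mul_apply, Pi.sub_apply, coe_one, Pi.one_apply, hq2, mulC_apply]
  ring

lemma supported_congr (D : LineCalculus H) {K : Set ℝ} {x : H} (hx : D.SupportedIn K x)
    {f g : ℝ →ᵇ ℂ} (h : ∀ u ∈ K, f u = g u) : D.apply f x = D.apply g x := by
  have := hx (f - g) (fun u hu => by simp [h u hu])
  rw [map_sub, _root_.sub_apply] at this
  exact eq_of_sub_eq_zero this

lemma norm_star_vac_le (S : ModularDatum H) (v : H →L[ℂ] H) (hv : v ∈ S.M) {a b : ℝ}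
    (hK : S.D.SupportedIn (Set.Icc a b) (v S.vac)) :
    ‖star v S.vac‖ ≤ Real.exp (b / 2) * ‖v S.vac‖ := by
  let e : ℝ →ᵇ ℂ := BoundedContinuousFunction.ofNormedAddCommGroup
    (fun u => ((Real.exp (min u b / 2) : ℝ) : ℂ)) (by fun_prop) (Real.exp (b / 2)) (fun u => by
      simp only [Complex.norm_real, Real.norm_eq_abs, abs_of_pos (Real.exp_pos _)]
      gcongr; exact min_le_right _ _)
  have he : ‖e‖ ≤ Real.exp (b / 2) := norm_ofNormedAddCommGroup_le _ (Real.exp_pos _).le _
  have h1 : S.J (star v S.vac) = S.D.apply e (v S.vac) := by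
    apply eq_of_sub_eq_zero
    apply eq_zero_of_compact S.D
    intro f hf
    rw [map_sub, halfExp_of_mem S v hv f (mulC f hf _ continuous_halfExp) (fun u => rfl),
      ← apply_mul_apply, sub_eq_zero]
    apply supported_congr S.D hK
    intro u hu
    simp [e, min_eq_left hu.2]
  rw [← S.J.norm_map, h1]
  exact (norm_apply_apply_le _ _ _).trans (by gcongr)

lemma supported_wave (D : LineCalculus H) {K : Set ℝ} {x : H} (hx : D.SupportedIn K x) (t : ℝ) :
    D.SupportedIn K (D.wave t x) := by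
  intro f hf
  rw [LineCalculus.wave, apply_comm, hx f hf, map_zero]

lemma supported_apply (D : LineCalculus H) {K : Set ℝ} (ψ : ℝ →ᵇ ℂ) (hψ : ∀ u, u ∉ K → ψ u = 0)
    (x : H) : D.SupportedIn K (D.apply ψ x) := by
  intro f hf
  have : f * ψ = 0 := by
    ext u
    by_cases hu : u ∈ K
    · simp [hf u hu]
    · simp [hψ u hu]
  rw [← apply_mul_apply, this, map_zero]; rfl

lemma apply_eq_self (D : LineCalculus H) {K : Set ℝ} {x : H} (hx : D.SupportedIn K x)
    (ψ : ℝ →ᵇ ℂ) (hψ : ∀ u ∈ K, ψ u = 1) : D.apply ψ x = x := by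
  rw [supported_congr D hx (g := 1) (fun u hu => by simp [hψ u hu]), map_one]; rfl

lemma smooth_vac (S : ModularDatum H) (g : ℝ → ℂ) (hg : Integrable g) (ψ : ℝ →ᵇ ℂ)
    (hψ : ∀ u, ψ u = ∫ t, g t * (χ t) u) (a : H →L[ℂ] H) :
    smooth S.D g hg a S.vac = S.D.apply ψ (a S.vac) := by
  rw [smooth_apply, ← integral_smul_wave S.D hg ψ hψ]
  simp only [wave_vac]

end Crest.Agent.R84
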