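import Crest.Agent.R84.Ergodic

set_option autoImplicit false

namespace Crest.Agent.R84

open Crest.OpAlg MeasureTheory Filter Topology

variable {H : Type*} [NormedAddCommGroup H] [InnerProductSpace ℂ H] [CompleteSpace H]

lemma exists_gt_of_tendsto_avg (ω : Ultrafilter ℕ) (hω : (ω : Filter ℕ) ≤ atTop) (G : ℝ → ℝ)
    (hG : Continuous G) {L ε : ℝ} (hL : Tendsto (avg G) ω (𝓝 L)) (hε : 0 < ε) :
    ∃ t, L - ε < G t := by
  by_contra h
  push Not at h
  have : L ≤ L - ε := by
    refine le_of_tendsto hL ?_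
    filter_upwards [hω (eventually_gt_atTop 0)] with k hk
    have hk' : (0 : ℝ) < k := by exact_mod_cast hk
    have h1 : ∫ t in (-(k : ℝ))..k, G t ≤ ∫ _ in (-(k : ℝ))..k, (L - ε) :=
      intervalIntegral.integral_mono_on (by linarith) (hG.intervalIntegrable _ _)
        (continuous_const.intervalIntegrable _ _) fun t _ => h t
    rw [intervalIntegral.integral_const, smul_eq_mul] at h1
    rw [avg, smul_eq_mul, inv_mul_le_iff₀ (by positivity)]
    linarith
  linarith

lemma avg_re (F : ℝ → ℂ) (hF : Continuous F) (k : ℕ) :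
    avg (fun t => (F t).re) k = (avg F k).re := by
  have := Complex.reCLM.intervalIntegral_comp_comm
    (hF.intervalIntegrable (μ := volume) (-(k : ℝ)) k)
  simp only [Complex.reCLM_apply] at this
  rw [avg, avg, this]
  simp

lemma avg_sub (F G : ℝ → ℝ) (hF : Continuous F) (hG : Continuous G) (k : ℕ) :
    avg (fun t => F t - G t) k = avg F k - avg G k := by
  rw [avg, avg, avg, intervalIntegral.integral_sub (hF.intervalIntegrable _ _)
    (hG.intervalIntegrable _ _), smul_sub]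

lemma avg_const_mul (c : ℝ) (F : ℝ → ℝ) (k : ℕ) :
    avg (fun t => c * F t) k = c * avg F k := by
  rw [avg, avg, intervalIntegral.integral_const_mul]
  simp only [smul_eq_mul]; ring

lemma ergodic_avg_re (S : ModularDatum H) (herg : S.Ergodic) (ω : Ultrafilter ℕ)
    (hω : (ω : Filter ℕ) ≤ atTop) (x : H →L[ℂ] H) (hx : x ∈ S.M) (η η' : H) :
    Tendsto (avg fun t => (inner ℂ η (S.flow t x η')).re) ω
      (𝓝 (inner ℂ S.vac (x S.vac) * inner ℂ η η').re) := by
  have := (Complex.continuous_re.tendsto _).comp (ergodic_avg S herg ω hω x hx η η')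
  refine this.congr fun k => ?_
  rw [avg_re _ (continuous_const.inner (continuous_flow S x η'))]
  rfl

lemma inner_star_mul_self (x : H →L[ℂ] H) (η : H) :
    inner ℂ η ((star x * x) η) = ((‖x η‖ ^ 2 : ℝ) : ℂ) := by
  change inner ℂ η (star x (x η)) = _
  rw [ContinuousLinearMap.star_eq_adjoint, ContinuousLinearMap.adjoint_inner_right,
    inner_self_eq_norm_sq_to_K]
  simp

lemma inner_mul_star_self (x : H →L[ℂ] H) (η : H) :
    inner ℂ η ((x * star x) η) = ((‖star x η‖ ^ 2 : ℝ) : ℂ) := by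
  have := inner_star_mul_self (star x) η
  rwa [star_star] at this

lemma flow_mul (S : ModularDatum H) (t : ℝ) (a b : H →L[ℂ] H) :
    S.flow t (a * b) = S.flow t a * S.flow t b := by
  ext x
  simp only [mul_apply_eq_comp, flow_apply, wave_neg_wave]

lemma star_flow (S : ModularDatum H) (t : ℝ) (a : H →L[ℂ] H) :
    star (S.flow t a) = S.flow t (star a) := by
  simp only [ModularDatum.flow, star_mul, star_wave, neg_neg, mul_assoc]

lemma flow_vac (S : ModularDatum H) (t : ℝ) (a : H →L[ℂ] H) :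
    S.flow t a S.vac = S.D.wave t (a S.vac) := by
  rw [flow_apply, wave_vac]

lemma supported_add (D : LineCalculus H) {K : Set ℝ} {x y : H} (hx : D.SupportedIn K x)
    (hy : D.SupportedIn K y) : D.SupportedIn K (x + y) := fun f hf => by
  rw [map_add, hx f hf, hy f hf, add_zero]

lemma supported_sub (D : LineCalculus H) {K : Set ℝ} {x y : H} (hx : D.SupportedIn K x)
    (hy : D.SupportedIn K y) : D.SupportedIn K (x - y) := fun f hf => by
  rw [map_sub, hx f hf, hy f hf, sub_zero]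

lemma supported_smul (D : LineCalculus H) {K : Set ℝ} {x : H} (hx : D.SupportedIn K x)
    (c : ℂ) : D.SupportedIn K (c • x) := fun f hf => by
  rw [map_smul, hx f hf, smul_zero]

lemma par_sq {E : Type*} [NormedAddCommGroup E] [InnerProductSpace ℂ E] (p q : E) :
    ‖p + q‖ ^ 2 + ‖p - q‖ ^ 2 = 2 * ‖p‖ ^ 2 + 2 * ‖q‖ ^ 2 := by
  have := parallelogram_law_with_norm ℂ p q
  nlinarith

/-- the potential -/
noncomputable def pot (S : ModularDatum H) (T : H →L[ℂ] H) (lam mu : ℝ) (v : H →L[ℂ] H) : ℝ :=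
  ‖T (v S.vac)‖ ^ 2 - lam * ‖(star v * v) S.vac‖ ^ 2 - mu * ‖v S.vac‖ ^ 2

lemma pot_add_sub (S : ModularDatum H) (T : H →L[ℂ] H) {lam : ℝ} (hlam : 0 ≤ lam) (mu : ℝ)
    (v b : H →L[ℂ] H) :
    2 * (pot S T lam mu v + (‖T (b S.vac)‖ ^ 2 - lam * (
      2 * (inner ℂ ((star v * v) S.vac) ((star b * b) S.vac)).re + ‖(star b * b) S.vac‖ ^ 2
      + 2 * ‖star v (b S.vac)‖ ^ 2 + 2 * ‖star b (v S.vac)‖ ^ 2) - mu * ‖b S.vac‖ ^ 2)) ≤
      pot S T lam mu (v + b) + pot S T lam mu (v - b) := by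
  have h1 := par_sq (T (v S.vac)) (T (b S.vac))
  have h2 := par_sq (v S.vac) (b S.vac)
  have h3 := par_sq ((star v * v) S.vac + (star b * b) S.vac)
    (star v (b S.vac) + star b (v S.vac))
  have h4 := par_sq (star v (b S.vac)) (star b (v S.vac))
  have h5 := norm_add_sq (𝕜 := ℂ) ((star v * v) S.vac) ((star b * b) S.vac)
  have e1 : (star (v + b) * (v + b)) S.vac = (star v * v) S.vac + (star b * b) S.vac +
      (star v (b S.vac) + star b (v S.vac)) := by
    simp only [star_add, mul_apply_eq_comp, add_apply, map_add]; abel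
  have e2 : (star (v - b) * (v - b)) S.vac = (star v * v) S.vac + (star b * b) S.vac -
      (star v (b S.vac) + star b (v S.vac)) := by
    simp only [star_sub, mul_apply_eq_comp, sub_apply, map_sub]; abel
  simp only [pot, e1, e2, add_apply, sub_apply, map_add, map_sub]
  simp only [RCLike.re_to_complex] at h5
  have h6 : 0 ≤ ‖star v (b S.vac) - star b (v S.vac)‖ ^ 2 := by positivity
  have h7 := mul_nonneg hlam h6
  nlinarith [congrArg (fun z => lam * z) h3, congrArg (fun z => lam * z) h4,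
    congrArg (fun z => lam * z) h5, congrArg (fun z => mu * z) h2]

lemma step (S : ModularDatum H) (herg : S.Ergodic) (ω : Ultrafilter ℕ)
    (hω : (ω : Filter ℕ) ≤ atTop) (T : H →L[ℂ] H) {K : Set ℝ} {κ : ℝ}
    (hκ : ∀ v ∈ S.M, S.D.SupportedIn K (v S.vac) → ‖star v S.vac‖ ^ 2 ≤ κ * ‖v S.vac‖ ^ 2)
    (a : H →L[ℂ] H) (ha : a ∈ S.M) (haK : S.D.SupportedIn K (a S.vac))
    (F : ℝ → ℝ) (hF : Continuous F) {e : ℝ} (hFa : ∀ t, F t - e ≤ ‖T (S.D.wave t (a S.vac))‖ ^ 2)
    {m : ℝ} (hm : Tendsto (avg F) ω (𝓝 m))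
    {lam : ℝ} (hlam : 0 ≤ lam) (mu : ℝ) {ε : ℝ} (hε : 0 < ε)
    (v : H →L[ℂ] H) (hv : v ∈ S.M) (hvK : S.D.SupportedIn K (v S.vac)) :
    ∃ v' ∈ S.M, S.D.SupportedIn K (v' S.vac) ∧
      pot S T lam mu v + (m - e - lam * (‖(star a * a) S.vac‖ ^ 2 +
        (2 + 4 * κ) * ‖a S.vac‖ ^ 2 * ‖v S.vac‖ ^ 2) - mu * ‖a S.vac‖ ^ 2 - ε) ≤
        pot S T lam mu v' := by
  let P1 : ℝ → ℝ := fun t => (inner ℂ ((star v * v) S.vac) (S.flow t (star a * a) S.vac)).re
  let P2 : ℝ → ℝ := fun t => (inner ℂ (a S.vac) (S.flow t (v * star v) (a S.vac))).re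
  let P3 : ℝ → ℝ := fun t => (inner ℂ (v S.vac) (S.flow t (a * star a) (v S.vac))).re
  have c1 : Continuous P1 :=
    Complex.continuous_re.comp (continuous_const.inner (continuous_flow S _ _))
  have c2 : Continuous P2 :=
    Complex.continuous_re.comp (continuous_const.inner (continuous_flow S _ _))
  have c2' : Continuous fun t => P2 (-t) := c2.comp continuous_neg
  have c3 : Continuous P3 :=
    Complex.continuous_re.comp (continuous_const.inner (continuous_flow S _ _))
  have t1 : Tendsto (avg P1) ω (𝓝 (‖a S.vac‖ ^ 2 * ‖v S.vac‖ ^ 2)) := by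
    have := ergodic_avg_re S herg ω hω _ (mul_mem (star_mem ha) ha) ((star v * v) S.vac) S.vac
    rw [inner_star_mul_self, ← inner_conj_symm, inner_star_mul_self, Complex.conj_ofReal,
      ← Complex.ofReal_mul, Complex.ofReal_re] at this
    exact this
  have t2 : Tendsto (avg fun t => P2 (-t)) ω (𝓝 (‖star v S.vac‖ ^ 2 * ‖a S.vac‖ ^ 2)) := by
    have := ergodic_avg_re S herg ω hω _ (mul_mem hv (star_mem hv)) (a S.vac) (a S.vac)
    rw [inner_mul_star_self, inner_self_eq_norm_sq_to_K] at this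
    have e : (((‖star v S.vac‖ ^ 2 : ℝ) : ℂ) * ((‖a S.vac‖ : ℝ) : ℂ) ^ 2).re =
        ‖star v S.vac‖ ^ 2 * ‖a S.vac‖ ^ 2 := by
      rw [← Complex.ofReal_pow, ← Complex.ofReal_mul, Complex.ofReal_re]
    rw [← e]
    exact this.congr fun k => (avg_neg P2 k).symm
  have t3 : Tendsto (avg P3) ω (𝓝 (‖star a S.vac‖ ^ 2 * ‖v S.vac‖ ^ 2)) := by
    have := ergodic_avg_re S herg ω hω _ (mul_mem ha (star_mem ha)) (v S.vac) (v S.vac)
    rw [inner_mul_star_self, inner_self_eq_norm_sq_to_K] at this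
    have e : (((‖star a S.vac‖ ^ 2 : ℝ) : ℂ) * ((‖v S.vac‖ : ℝ) : ℂ) ^ 2).re =
        ‖star a S.vac‖ ^ 2 * ‖v S.vac‖ ^ 2 := by
      rw [← Complex.ofReal_pow, ← Complex.ofReal_mul, Complex.ofReal_re]
    rw [← e]
    exact this
  let G : ℝ → ℝ := fun t => F t - (2 * lam) * P1 t - (2 * lam) * P2 (-t) - (2 * lam) * P3 t
  have cG : Continuous G := by fun_prop
  have tG := ((hm.sub (t1.const_mul (2 * lam))).sub (t2.const_mul (2 * lam))).sub
    (t3.const_mul (2 * lam))
  have tG' : Tendsto (avg G) ω (𝓝 _) := tG.congr fun k => by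
    simp only [G]
    rw [avg_sub _ _ (by fun_prop) (by fun_prop), avg_sub _ _ (by fun_prop) (by fun_prop),
      avg_sub _ _ (by fun_prop) (by fun_prop), avg_const_mul, avg_const_mul, avg_const_mul]
  obtain ⟨t, ht⟩ := exists_gt_of_tendsto_avg ω hω G cG tG' hε
  set b := S.flow t a with hb
  have hbM : b ∈ S.M := S.flow_mem t a ha
  have hbv : b S.vac = S.D.wave t (a S.vac) := flow_vac S t a
  have hbK : S.D.SupportedIn K (b S.vac) := by rw [hbv]; exact supported_wave _ haK t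
  have key := pot_add_sub S T hlam mu v b
  have e0 : star b * b = S.flow t (star a * a) := by rw [hb, star_flow, flow_mul]
  have e1 : (inner ℂ ((star v * v) S.vac) ((star b * b) S.vac)).re = P1 t := by rw [e0]
  have e2 : ‖(star b * b) S.vac‖ = ‖(star a * a) S.vac‖ := by rw [e0, flow_vac, norm_wave]
  have e3 : ‖star v (b S.vac)‖ ^ 2 = P2 (-t) := by
    simp only [P2]
    rw [hbv, flow_apply, inner_wave_right, neg_neg, inner_mul_star_self, Complex.ofReal_re]
  have e4 : ‖star b (v S.vac)‖ ^ 2 = P3 t := by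
    simp only [P3]
    rw [flow_mul, ← star_flow, inner_mul_star_self, Complex.ofReal_re]
  have e5 : ‖b S.vac‖ = ‖a S.vac‖ := by rw [hbv, norm_wave]
  rw [e1, e2, e3, e4, e5, hbv] at key
  have k1 := mul_le_mul_of_nonneg_left
    (mul_le_mul_of_nonneg_right (hκ v hv hvK) (sq_nonneg ‖a S.vac‖)) hlam
  have k2 := mul_le_mul_of_nonneg_left
    (mul_le_mul_of_nonneg_right (hκ a ha haK) (sq_nonneg ‖v S.vac‖)) hlam
  have k3 := hFa t
  simp only [G] at ht
  by_cases hc : pot S T lam mu (v - b) ≤ pot S T lam mu (v + b)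
  · refine ⟨v + b, add_mem hv hbM, supported_add _ hvK hbK, ?_⟩
    nlinarith
  · refine ⟨v - b, sub_mem hv hbM, supported_sub _ hvK hbK, ?_⟩
    push Not at hc
    nlinarith

end Crest.Agent.R84
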